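import Vale.Agent.P252.H402.ABP
import Mathlib.Analysis.SpecialFunctions.SmoothTransition
import Mathlib.MeasureTheory.Integral.IntervalIntegral.FundThmCalculus
import Mathlib.Analysis.Convex.SpecificFunctions.Basic

/-!
# Auxiliary facts for the comparison lemma: a smooth convex cut-off and the tangent inequality for
the concave function `M ↦ (det M)^{1/(n+2)}`.
-/

open scoped ContDiff Topology
open Filter

namespace Vale.Agent.P252.H372

/-- A smooth convex nondecreasing function that vanishes on `(-∞, ε/2]` and has slope `1` on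
`[ε, ∞)`. -/
theorem exists_psi (ε : ℝ) (hε : 0 < ε) : ∃ ψ χ χ' : ℝ → ℝ, ContDiff ℝ ∞ ψ ∧
    (∀ s, HasDerivAt ψ (χ s) s) ∧ (∀ s, HasDerivAt χ (χ' s) s) ∧
    (∀ s, 0 ≤ χ s) ∧ (∀ s, χ s ≤ 1) ∧ (∀ s, 0 ≤ χ' s) ∧
    (∀ s, s ≤ ε / 2 → ψ s = 0) ∧ (∀ s, ε ≤ s → χ s = 1) ∧ (∀ s, ε < s → χ' s = 0) := by
  set χ : ℝ → ℝ := fun s => Real.smoothTransition ((2 * s - ε) / ε) with hχ
  have hlin : ContDiff ℝ ∞ (fun s : ℝ => (2 * s - ε) / ε) := by fun_prop
  have hχs : ContDiff ℝ ∞ χ := (Real.smoothTransition.contDiff (n := ⊤)).comp hlin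
  have hmono : Monotone χ := by
    intro a b hab
    exact Real.smoothTransition.monotone (by gcongr)
  have hd : ∀ s, HasDerivAt (fun s => ∫ t in (0 : ℝ)..s, χ t) (χ s) s := fun s =>
    intervalIntegral.integral_hasDerivAt_right (hχs.continuous.intervalIntegrable _ _)
      (hχs.continuous.stronglyMeasurableAtFilter _ _) hχs.continuous.continuousAt
  have hderiv : deriv (fun s => ∫ t in (0 : ℝ)..s, χ t) = χ := funext fun s => (hd s).deriv
  refine ⟨fun s => ∫ t in (0 : ℝ)..s, χ t, χ, deriv χ, ?_, hd, ?_, ?_, ?_, ?_, ?_, ?_, ?_⟩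
  · rw [contDiff_infty_iff_deriv]
    refine ⟨fun s => (hd s).differentiableAt, ?_⟩
    rw [hderiv]
    exact hχs
  · intro s
    exact (hχs.differentiable (by simp) s).hasDerivAt
  · intro s; exact Real.smoothTransition.nonneg _
  · intro s; exact Real.smoothTransition.le_one _
  · intro s; exact hmono.deriv_nonneg
  · intro s hs
    have h0 : ∀ t, t ≤ ε / 2 → χ t = 0 := by
      intro t ht
      refine Real.smoothTransition.zero_of_nonpos ?_
      exact div_nonpos_of_nonpos_of_nonneg (by linarith) hε.le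
    have : ∀ t ∈ Set.uIcc (0 : ℝ) s, χ t = 0 := by
      intro t ht
      refine h0 t ?_
      rcases Set.mem_uIcc.1 ht with h | h
      · linarith [h.2]
      · linarith [h.2]
    have h1 := intervalIntegral.integral_congr (μ := MeasureTheory.volume) (g := fun _ => (0 : ℝ)) this
    simpa using h1
  · intro s hs
    refine Real.smoothTransition.one_of_one_le ?_
    rw [le_div_iff₀ hε]; linarith
  · intro s hs
    have : χ =ᶠ[𝓝 s] fun _ => (1 : ℝ) := by
      filter_upwards [Ioi_mem_nhds hs] with t ht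
      refine Real.smoothTransition.one_of_one_le ?_
      rw [le_div_iff₀ hε]
      have : ε < t := ht
      linarith
    rw [this.deriv_eq]
    simp

variable {n : ℕ}

/-- Tangent inequality for `(det)^{1/(n+2)}`. -/
theorem det_rpow_le {M P : Matrix (Fin n) (Fin n) ℝ} (hM : M.PosDef) (hP : P.PosSemidef) :
    P.det ^ (1 / ((n : ℝ) + 2)) ≤ M.det ^ (1 / ((n : ℝ) + 2)) *
      (1 + 1 / ((n : ℝ) + 2) * ∑ i, ∑ j, M⁻¹ i j * (P i j - M i j)) := by
  have hdet : 0 < M.det := hM.det_pos
  have hPd : 0 ≤ P.det := hP.det_nonneg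
  rcases Nat.eq_zero_or_pos n with rfl | hn
  · simp [Matrix.det_isEmpty]
  have hn' : (0 : ℝ) < n := by exact_mod_cast hn
  have h1 := H402.det_mul_det_le hM.inv.posSemidef hP hn
  have hdu : IsUnit M.det := hdet.ne'.isUnit
  have h2 : (M⁻¹ * P).trace = ∑ i, ∑ j, M⁻¹ i j * P i j := by
    simp only [Matrix.trace, Matrix.diag_apply, Matrix.mul_apply]
    refine Finset.sum_congr rfl fun i _ => Finset.sum_congr rfl fun j _ => ?_
    have := hP.isHermitian.apply i j
    rw [star_trivial] at this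
    rw [this]
  have h3 : ∑ i, ∑ j, M⁻¹ i j * M i j = n := by
    have h4 : (M⁻¹ * M).trace = ∑ i, ∑ j, M⁻¹ i j * M i j := by
      simp only [Matrix.trace, Matrix.diag_apply, Matrix.mul_apply]
      refine Finset.sum_congr rfl fun i _ => Finset.sum_congr rfl fun j _ => ?_
      have := hM.isHermitian.apply i j
      rw [star_trivial] at this
      rw [this]
    rw [← h4, Matrix.nonsing_inv_mul _ hdu]
    simp
  have hsum : ∑ i, ∑ j, M⁻¹ i j * (P i j - M i j) = (M⁻¹ * P).trace - n := by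
    rw [h2, ← h3]
    simp only [mul_sub, Finset.sum_sub_distrib]
  rw [hsum]
  set T := (M⁻¹ * P).trace with hT
  have hTn : 0 ≤ T := by
    obtain ⟨C, hC⟩ : ∃ C : Matrix (Fin n) (Fin n) ℝ, M⁻¹ = C.conjTranspose * C := by
      open scoped MatrixOrder in
      obtain ⟨C, hC⟩ := CStarAlgebra.nonneg_iff_eq_star_mul_self.mp hM.inv.posSemidef.nonneg
      exact ⟨C, hC⟩
    rw [hT, hC, ← Matrix.trace_mul_cycle]
    exact (hP.mul_mul_conjTranspose_same C).trace_nonneg
  rw [Matrix.det_nonsing_inv, Ring.inverse_eq_inv'] at h1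
  have h5 : P.det ≤ M.det * (T / n) ^ n := by
    have := mul_le_mul_of_nonneg_left h1 hdet.le
    rwa [← mul_assoc, mul_inv_cancel₀ hdet.ne', one_mul] at this
  have hp : 0 ≤ 1 / ((n : ℝ) + 2) := by positivity
  calc P.det ^ (1 / ((n : ℝ) + 2)) ≤ (M.det * (T / n) ^ n) ^ (1 / ((n : ℝ) + 2)) :=
        Real.rpow_le_rpow hPd h5 hp
    _ = M.det ^ (1 / ((n : ℝ) + 2)) * (T / n) ^ ((n : ℝ) / (n + 2)) := by
        rw [Real.mul_rpow hdet.le (by positivity), ← Real.rpow_natCast (T / n),
          ← Real.rpow_mul (by positivity)]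
        congr 2
        ring
    _ ≤ M.det ^ (1 / ((n : ℝ) + 2)) * (1 + 1 / ((n : ℝ) + 2) * (T - n)) := by
        refine mul_le_mul_of_nonneg_left ?_ (Real.rpow_nonneg hdet.le _)
        have h6 := _root_.rpow_one_add_le_one_add_mul_self (s := T / n - 1) (p := (n : ℝ) / (n + 2))
          (by linarith [div_nonneg hTn hn'.le]) (by positivity)
          (by rw [div_le_one (by positivity)]; linarith)
        have h7 : (1 : ℝ) + (T / n - 1) = T / n := by ring
        rw [h7] at h6
        refine h6.trans (le_of_eq ?_)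
        field_simp

end Vale.Agent.P252.H372
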