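import Vale.Agent.P252.H392.Lop
import Vale.Agent.P252.H338.IBP
import Vale.Agent.P252.R.Spec

/-!
# The linearised affine area: `∫ D^{1/(n+2)} u^{ij} φ_ij = 0` on affine maximal graphs
-/

open scoped ContDiff Topology
open Filter MeasureTheory

namespace Vale.Agent.P252.H372

open Vale.Agent.P252.R (En AMLoc SC dt Lop)

variable {n : ℕ} {Ω K : Set (En n)} {u φ : En n → ℝ} {x : En n}

/-- `D^{1/(n+2)}`. -/
noncomputable def dens (u : En n → ℝ) (x : En n) : ℝ := dt u x ^ (1 / ((n : ℝ) + 2))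

lemma dens_ev (hu : C.Sm u x) (hd : 0 < (hess u x).det) :
    dens u =ᶠ[𝓝 x] fun y => Real.exp (1 / ((n : ℝ) + 2) * C.ell u y) := by
  have h1 : ContinuousAt (fun y => (hess u y).det) x := (C.sm_hess_det hu).continuousAt
  filter_upwards [h1.eventually (lt_mem_nhds hd)] with y hy
  unfold dens R.dt C.ell
  rw [Real.rpow_def_of_pos hy, mul_comm]

lemma sm_dens (hu : C.Sm u x) (hd : 0 < (hess u x).det) : C.Sm (dens u) x := by
  have h1 : C.Sm (fun y => Real.exp (1 / ((n : ℝ) + 2) * C.ell u y)) x :=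
    (contDiffAt_const.mul (C.sm_ell hu hd.ne')).exp
  exact h1.congr_of_eventuallyEq (dens_ev hu hd)

lemma pd_dens (hu : C.Sm u x) (hd : 0 < (hess u x).det) (i : Fin n) :
    pd i (dens u) x = 1 / ((n : ℝ) + 2) * dens u x * pd i (C.ell u) x := by
  have h0 := (dens_ev hu hd).self_of_nhds
  rw [C.pd_congr (dens_ev hu hd) i]
  have h1 : HasDerivAt (fun s : ℝ => Real.exp (1 / ((n : ℝ) + 2) * s))
      (Real.exp (1 / ((n : ℝ) + 2) * C.ell u x) * (1 / ((n : ℝ) + 2))) (C.ell u x) := by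
    have := ((hasDerivAt_id (C.ell u x)).const_mul (1 / ((n : ℝ) + 2))).exp
    simpa using this
  have h2 := C.pd_comp (x := x) (f := C.ell u) i h1 (C.sm_ell hu hd.ne').da
  rw [h2, h0]
  ring

/-- The field whose divergence is `D^{1/(n+2)} Lφ`. -/
noncomputable def fld (u φ : En n → ℝ) (i : Fin n) (y : En n) : ℝ :=
  dens u y * ∑ j, (hess u y)⁻¹ i j *
    (pd j φ y + ((n : ℝ) + 1) / ((n : ℝ) + 2) * (φ y * pd j (C.ell u) y))

lemma sm_V (hu : C.Sm u x) (hd : 0 < (hess u x).det) (hφ : C.Sm φ x) (j : Fin n) :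
    C.Sm (fun y => pd j φ y + ((n : ℝ) + 1) / ((n : ℝ) + 2) * (φ y * pd j (C.ell u) y)) x :=
  (hφ.pd j).add (contDiffAt_const.mul (hφ.mul ((C.sm_ell hu hd.ne').pd j)))

lemma sm_fld (hu : C.Sm u x) (hd : 0 < (hess u x).det) (hφ : C.Sm φ x) (i : Fin n) :
    C.Sm (fld u φ i) x := by
  unfold fld
  refine (sm_dens hu hd).mul (ContDiffAt.sum fun j _ => ?_)
  exact (C.sm_uinv hu hd.ne' i j).mul (sm_V hu hd hφ j)

/-- Pointwise identity. -/
theorem div_fld (hu : C.Sm u x) (hd : 0 < (hess u x).det) (hφ : C.Sm φ x)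
    (ham : Lop u (R.ell u) x =
      ((n : ℝ) + 1) / ((n : ℝ) + 2) * R.ip u x (R.gr (R.ell u) x) (R.gr (R.ell u) x)) :
    ∑ i, pd i (fld u φ i) x = dens u x * Lop u φ x := by
  have hn2 : ((n : ℝ) + 2) ≠ 0 := by positivity
  set θ : ℝ := ((n : ℝ) + 1) / ((n : ℝ) + 2) with hθ
  have h1 := C.div_rule hu hd.ne' (sm_dens hu hd) (fun j => sm_V hu hd hφ j)
  have h1' : ∑ i, pd i (fld u φ i) x = _ := h1
  rw [h1']
  have hgf : C.gr (dens u) x = (1 / ((n : ℝ) + 2) * dens u x) • C.gr (C.ell u) x := by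
    funext i
    rw [C.gr_apply, pd_dens hu hd i]
    rfl
  have hV : (fun j => pd j φ x + θ * (φ x * pd j (C.ell u) x)) =
      C.gr φ x + (θ * φ x) • C.gr (C.ell u) x := by
    funext j
    simp only [Pi.add_apply, Pi.smul_apply, smul_eq_mul, C.gr_apply]
    ring
  have hdV : ∀ i j, pd i (fun y => pd j φ y + θ * (φ y * pd j (C.ell u) y)) x =
      pd i (pd j φ) x + θ * (pd i φ x * pd j (C.ell u) x + φ x * pd i (pd j (C.ell u)) x) := by
    intro i j
    have e1 : DifferentiableAt ℝ (fun y => φ y * pd j (C.ell u) y) x :=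
      hφ.da.fun_mul ((C.sm_ell hu hd.ne').pd j).da
    rw [C.pd_add i (hφ.pd j).da ((differentiableAt_const θ).fun_mul e1), C.pd_const_mul i θ e1,
      C.pd_mul i hφ.da ((C.sm_ell hu hd.ne').pd j).da]
  have hL : ∑ i, ∑ j, (hess u x)⁻¹ i j *
      pd i (fun y => pd j φ y + θ * (φ y * pd j (C.ell u) y)) x =
      Lop u φ x + θ * (C.ip u x (C.gr φ x) (C.gr (C.ell u) x) + φ x * Lop u (R.ell u) x) := by
    unfold R.Lop C.ip C.gr
    simp only [hdV]
    rw [Finset.mul_sum (f := fun i => ∑ j, (hess u x)⁻¹ i j * pd i (pd j (R.ell u)) x)]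
    simp only [Finset.mul_sum, ← Finset.sum_add_distrib]
    refine Finset.sum_congr rfl fun i _ => Finset.sum_congr rfl fun j _ => ?_
    have : R.ell u = C.ell u := rfl
    rw [this]
    ring
  rw [hL, hgf, hV, C.ip_smul_left, C.ip_add_right, C.ip_smul_right, ham]
  have hc : R.ip u x (R.gr (R.ell u) x) (R.gr (R.ell u) x) =
      C.ip u x (C.gr (C.ell u) x) (C.gr (C.ell u) x) := rfl
  rw [hc, C.ip_comm hu (C.gr φ x)]
  have hp : 1 / ((n : ℝ) + 2) = 1 - θ := by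
    rw [hθ]; field_simp; ring
  rw [hp]
  ring

/-- **First variation of the affine area.** -/
theorem integral_dens_Lop (h : AMLoc Ω u) (hφ : ContDiffOn ℝ ∞ φ Ω) (hK : IsCompact K)
    (hKΩ : K ⊆ Ω) (h0 : ∀ x ∈ Ω, x ∉ K → φ x = 0) :
    ∫ x in Ω, dens u x * Lop u φ x = 0 := by
  have hsm : ∀ x ∈ Ω, C.Sm u x := fun x hx => h.sm.contDiffAt (h.op.mem_nhds hx)
  have hsφ : ∀ x ∈ Ω, C.Sm φ x := fun x hx => hφ.contDiffAt (h.op.mem_nhds hx)
  have hd : ∀ x ∈ Ω, 0 < (hess u x).det := fun x hx => (h.pos x hx).det_pos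
  rw [← setIntegral_congr_fun h.op.measurableSet
    (fun x hx => div_fld (hsm x hx) (hd x hx) (hsφ x hx) (h.am x hx))]
  refine H338.setIntegral_div_eq_zero h.op hK hKΩ ?_ ?_
  · intro i x hx
    exact ((sm_fld (hsm x hx) (hd x hx) (hsφ x hx) i).of_le (by simp)).contDiffWithinAt
  · intro i x hx hxK
    have h3 : φ =ᶠ[𝓝 x] fun _ => (0 : ℝ) := by
      filter_upwards [(h.op.sdiff hK.isClosed).mem_nhds ⟨hx, hxK⟩] with z hz
      exact h0 z hz.1 hz.2
    have h4 : ∀ j, pd j φ x = 0 := fun j => by rw [C.pd_congr h3 j, C.pd_const]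
    simp [fld, h4, h0 x hx hxK]

end Vale.Agent.P252.H372
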