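import Vale.Agent.P252.H372.CmpAux
import Vale.Agent.P252.H372.CmpInt

/-!
# Comparison of affine areas (B4)
-/

open scoped ContDiff Topology
open Filter MeasureTheory

namespace Vale.Agent.P252.H372

open Vale.Agent.P252.R (En AMLoc SC dt Lop)

variable {n : ℕ} {O : Set (En n)} {u g : En n → ℝ} {x : En n}

/-- The Hessian of `ψ(g - u)`. -/
lemma hess_psi {ψ χ χ' : ℝ → ℝ} (h1 : ∀ s, HasDerivAt ψ (χ s) s)
    (h2 : ∀ s, HasDerivAt χ (χ' s) s) (hu : C.Sm u x) (hg : C.Sm g x) :
    hess (fun y => ψ (g y - u y)) x = χ (g x - u x) • (hess g x - hess u x) +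
      χ' (g x - u x) • Matrix.vecMulVec (fun i => pd i (fun y => g y - u y) x)
        (fun i => pd i (fun y => g y - u y) x) := by
  have hs : C.Sm (fun y => g y - u y) x := hg.sub hu
  ext i j
  rw [C.hess_comp (f := fun y => g y - u y) hs (Eventually.of_forall h1) (h2 _) i j,
    C.hess_sub hg hu i j]
  simp [Matrix.vecMulVec_apply]

/-- Pointwise tangent inequality. -/
lemma point_ineq {ψ χ χ' : ℝ → ℝ} (h1 : ∀ s, HasDerivAt ψ (χ s) s)
    (h2 : ∀ s, HasDerivAt χ (χ' s) s) (h3 : ∀ s, 0 ≤ χ s) (h4 : ∀ s, χ s ≤ 1)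
    (h5 : ∀ s, 0 ≤ χ' s) (hu : C.Sm u x) (hg : C.Sm g x) (hup : (hess u x).PosDef)
    (hgp : (hess g x).PosDef) :
    0 ≤ dens u x * (1 + 1 / ((n : ℝ) + 2) * Lop u (fun y => ψ (g y - u y)) x) ∧
      (χ (g x - u x) = 1 → χ' (g x - u x) = 0 →
        dens g x ≤ dens u x * (1 + 1 / ((n : ℝ) + 2) * Lop u (fun y => ψ (g y - u y)) x)) := by
  set c := χ (g x - u x) with hc
  set c' := χ' (g x - u x) with hc'
  set v : Fin n → ℝ := fun i => pd i (fun y => g y - u y) x with hv
  set P : Matrix (Fin n) (Fin n) ℝ := hess u x + hess (fun y => ψ (g y - u y)) x with hP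
  have hPe : P = (1 - c) • hess u x + c • hess g x + c' • Matrix.vecMulVec v v := by
    rw [hP, hess_psi h1 h2 hu hg, ← hc, ← hc']
    module
  have hPs : P.PosSemidef := by
    rw [hPe]
    refine ((hup.posSemidef.smul (by linarith [h4 (g x - u x)])).add
      (hgp.posSemidef.smul (h3 _))).add ?_
    have := Matrix.posSemidef_vecMulVec_self_star (R := ℝ) v
    rw [star_trivial] at this
    exact this.smul (h5 _)
  have key := det_rpow_le hup hPs
  have hL : ∑ i, ∑ j, (hess u x)⁻¹ i j * (P i j - hess u x i j) =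
      Lop u (fun y => ψ (g y - u y)) x := by
    unfold R.Lop
    refine Finset.sum_congr rfl fun i _ => Finset.sum_congr rfl fun j _ => ?_
    rw [hP, Matrix.add_apply, add_sub_cancel_left]
    rfl
  rw [hL] at key
  refine ⟨(Real.rpow_nonneg hPs.det_nonneg _).trans key, fun e1 e2 => ?_⟩
  have : P = hess g x := by rw [hPe, e1, e2]; simp
  rw [this] at key
  exact key

/-- B4. -/
theorem compare (n : ℕ) : R.Stmt_compare n := by
  intro Ω O u g hu hO hg hK
  set K : Set (En n) := {x | x ∈ O ∧ u x ≤ g x} with hKdef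
  set S : Set (En n) := {x | x ∈ O ∧ u x < g x} with hSdef
  have huO : AMLoc O u :=
    { op := hg.op, sm := hu.sm.mono hO, pos := fun x hx => hu.pos x (hO hx),
      am := fun x hx => hu.am x (hO hx) }
  have hsu : ∀ x ∈ O, C.Sm u x := fun x hx => huO.sm.contDiffAt (hg.op.mem_nhds hx)
  have hsg : ∀ x ∈ O, C.Sm g x := fun x hx => hg.sm.contDiffAt (hg.op.mem_nhds hx)
  have hdu : ∀ x ∈ O, 0 < (hess u x).det := fun x hx => (huO.pos x hx).det_pos
  have hdg : ∀ x ∈ O, 0 < (hess g x).det := fun x hx => (hg.pos x hx).det_pos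
  have hKO : K ⊆ O := fun x hx => hx.1
  have hSK : S ⊆ K := fun x hx => ⟨hx.1, hx.2.le⟩
  have hSO : S ⊆ O := fun x hx => hx.1
  have hopen : ∀ a : ℝ, IsOpen {x | x ∈ O ∧ a < g x - u x} := by
    intro a
    exact (hg.sm.continuousOn.sub huO.sm.continuousOn).isOpen_inter_preimage hg.op isOpen_Ioi
  have hSopen : IsOpen S := by
    have := hopen 0
    simp only [sub_pos] at this
    exact this
  have hcu : ContinuousOn (dens u) O := fun x hx =>
    (sm_dens (hsu x hx) (hdu x hx)).continuousAt.continuousWithinAt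
  have hcg : ContinuousOn (dens g) O := fun x hx =>
    (sm_dens (hsg x hx) (hdg x hx)).continuousAt.continuousWithinAt
  have hIu : IntegrableOn (dens u) S :=
    ((hcu.mono hKO).integrableOn_compact hK).mono_set hSK
  have hIg : IntegrableOn (dens g) S :=
    ((hcg.mono hKO).integrableOn_compact hK).mono_set hSK
  -- the main inequality at level `ε`
  have main : ∀ ε : ℝ, 0 < ε → ∫ x in {x | x ∈ O ∧ ε < g x - u x}, dens g x ≤
      ∫ x in S, dens u x := by
    intro ε hε
    obtain ⟨ψ, χ, χ', hψ, h1, h2, h3, h4, h5, h6, h7, h8⟩ := exists_psi ε hε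
    set φ : En n → ℝ := fun y => ψ (g y - u y) with hφdef
    have hsφ : ∀ x ∈ O, C.Sm φ x := fun x hx =>
      (hψ.contDiffAt (x := g x - u x)).comp x ((hsg x hx).sub (hsu x hx))
    have hφ : ContDiffOn ℝ ∞ φ O := fun x hx => (hsφ x hx).contDiffWithinAt
    have h0 : ∀ x ∈ O, x ∉ K → φ x = 0 := by
      intro x hx hxK
      refine h6 _ ?_
      have : g x < u x := by
        by_contra h
        exact hxK ⟨hx, not_lt.1 h⟩
      linarith
    have hint := integral_dens_Lop huO hφ hK hKO h0
    have hLc : ContinuousOn (Lop u φ) O := by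
      intro x hx
      refine ContinuousAt.continuousWithinAt ?_
      unfold R.Lop
      refine tendsto_finsetSum _ fun i _ => tendsto_finsetSum _ fun j _ => ?_
      exact ((C.sm_uinv (hsu x hx) (hdu x hx).ne' i j).continuousAt.mul
        (((hsφ x hx).pd j).pd i).continuousAt)
    have hIL : IntegrableOn (fun x => dens u x * Lop u φ x) S :=
      (((hcu.mul hLc).mono hKO).integrableOn_compact hK).mono_set hSK
    have hzero : ∫ x in S, dens u x * Lop u φ x = 0 := by
      rw [← hint]
      refine (setIntegral_eq_of_subset_of_forall_sdiff_eq_zero hg.op.measurableSet hSO ?_).symm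
      intro x hx
      have hx1 : x ∈ O := hx.1
      have hx2 : g x - u x ≤ 0 := by
        have : ¬ u x < g x := fun h => hx.2 ⟨hx.1, h⟩
        linarith
      have hz : φ =ᶠ[𝓝 x] fun _ => (0 : ℝ) := by
        have hcont : ContinuousAt (fun y => g y - u y) x :=
          ((hsg x hx1).sub (hsu x hx1)).continuousAt
        filter_upwards [hcont.eventually (gt_mem_nhds (show g x - u x < ε / 2 by linarith))]
          with y hy
        exact h6 _ hy.le
      have hL0 : Lop u φ x = 0 := by
        have e1 : Lop u φ x = Lop u (fun _ => (0 : ℝ)) x := C.Lo_congr hz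
        rw [e1]
        exact C.Lo_const 0
      simp [hL0]
    have hsplit : ∫ x in S, (dens u x * (1 + 1 / ((n : ℝ) + 2) * Lop u φ x)) =
        ∫ x in S, dens u x := by
      have e1 : ∀ x, dens u x * (1 + 1 / ((n : ℝ) + 2) * Lop u φ x) =
          dens u x + 1 / ((n : ℝ) + 2) * (dens u x * Lop u φ x) := fun x => by ring
      simp only [e1]
      rw [integral_add hIu (hIL.const_mul _), integral_const_mul, hzero, mul_zero, add_zero]
    have hIf : IntegrableOn (fun x => dens u x * (1 + 1 / ((n : ℝ) + 2) * Lop u φ x)) S := by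
      have e1 : (fun x => dens u x * (1 + 1 / ((n : ℝ) + 2) * Lop u φ x)) =
          fun x => dens u x + 1 / ((n : ℝ) + 2) * (dens u x * Lop u φ x) := by
        funext x; ring
      rw [e1]
      exact hIu.add (hIL.const_mul _)
    have hAS : {x | x ∈ O ∧ ε < g x - u x} ⊆ S := fun x hx => ⟨hx.1, by
      have := hx.2
      linarith⟩
    have hpt := fun x (hx : x ∈ O) => point_ineq h1 h2 h3 h4 h5 (hsu x hx) (hsg x hx)
      (huO.pos x hx) (hg.pos x hx)
    calc ∫ x in {x | x ∈ O ∧ ε < g x - u x}, dens g x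
        ≤ ∫ x in {x | x ∈ O ∧ ε < g x - u x},
            (dens u x * (1 + 1 / ((n : ℝ) + 2) * Lop u φ x)) := by
          refine setIntegral_mono_on (hIg.mono_set hAS) (hIf.mono_set hAS)
            (hopen ε).measurableSet fun x hx => ?_
          exact (hpt x hx.1).2 (h7 _ hx.2.le) (h8 _ hx.2)
      _ ≤ ∫ x in S, (dens u x * (1 + 1 / ((n : ℝ) + 2) * Lop u φ x)) := by
          refine setIntegral_mono_set hIf ?_ hAS.eventuallyLE
          filter_upwards [self_mem_ae_restrict hSopen.measurableSet] with x hx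
          exact (hpt x (hSO hx)).1
      _ = ∫ x in S, dens u x := hsplit
  -- the limit
  have hU : (⋃ m : ℕ, {x | x ∈ O ∧ 1 / ((m : ℝ) + 1) < g x - u x}) = S := by
    ext x
    simp only [Set.mem_iUnion, Set.mem_ofPred_eq, hSdef]
    constructor
    · rintro ⟨m, hx, hm⟩
      refine ⟨hx, ?_⟩
      have : (0 : ℝ) < 1 / ((m : ℝ) + 1) := by positivity
      linarith
    · rintro ⟨hx, hlt⟩
      obtain ⟨m, hm⟩ := exists_nat_one_div_lt (sub_pos.2 hlt)
      exact ⟨m, hx, hm⟩
  have hmono : Monotone fun m : ℕ => {x | x ∈ O ∧ 1 / ((m : ℝ) + 1) < g x - u x} := by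
    intro a b hab x hx
    refine ⟨hx.1, lt_of_le_of_lt ?_ hx.2⟩
    have : (a : ℝ) ≤ b := by exact_mod_cast hab
    gcongr
  have hlim := tendsto_setIntegral_of_monotone (μ := volume) (f := dens g)
    (fun m : ℕ => (hopen (1 / ((m : ℝ) + 1))).measurableSet) hmono (by rw [hU]; exact hIg)
  rw [hU] at hlim
  exact le_of_tendsto' hlim fun m => main _ (by positivity)

end Vale.Agent.P252.H372
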